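import Vale.Agent.H29.P065.Count

/-!
# Halving lines of planar point sets with few non-extreme points

Let `P` be a set of `n` points in the plane, no three collinear, and let `i` be the number of
points `p` of `P` that lie in the convex hull of the other points of `P`. Then the number
`h(P)` of halving lines of `P` satisfies `2 h(P) ≤ n + i (n - 2)`.
-/

namespace Vale.Agent.Results.P065.A_FewNonExtremePoints

open Vale.Agent.H29.P065

open Classical in
theorem result (P : Finset (ℝ × ℝ)) (hP : NoThreeCollinear P) :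
    2 * halvingCount P ≤ P.card +
      (P.filter (fun p => p ∈ convexHull ℝ (↑(P.erase p) : Set (ℝ × ℝ)))).card *
        (P.card - 2) := by
  have h1 := two_mul_halvingCount_le P
  have h2 : ∑ p ∈ P, (P.filter (fun q => IsHalvingPair P p q)).card ≤
      ∑ p ∈ P, (if p ∈ convexHull ℝ (↑(P.erase p) : Set (ℝ × ℝ)) then P.card - 1 else 1) := by
    apply Finset.sum_le_sum
    intro p hp
    split_ifs with h
    · exact deg_le_card_sub_one P p hp
    · exact deg_le_one_of_extreme P hP p hp h
  rw [Finset.sum_ite, Finset.sum_const, Finset.sum_const, smul_eq_mul, smul_eq_mul, mul_one] at h2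
  have h3 := Finset.card_filter_add_card_filter_not (s := P)
    (fun p => p ∈ convexHull ℝ (↑(P.erase p) : Set (ℝ × ℝ)))
  obtain ⟨i, hi⟩ : ∃ i, i = (P.filter (fun p => p ∈ convexHull ℝ (↑(P.erase p) : Set (ℝ × ℝ)))).card :=
    ⟨_, rfl⟩
  obtain ⟨e, he⟩ : ∃ e, e = (P.filter (fun p => ¬ p ∈ convexHull ℝ (↑(P.erase p) : Set (ℝ × ℝ)))).card :=
    ⟨_, rfl⟩
  rw [← hi, ← he] at h2 h3
  rw [← hi]
  rcases Nat.lt_or_ge P.card 2 with hn | hn
  · have : P.card - 1 = 0 := by omega
    rw [this] at h2
    omega
  · obtain ⟨m, hm⟩ : ∃ m, P.card = m + 2 := ⟨P.card - 2, by omega⟩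
    rw [hm] at h2 h3 ⊢
    have e1 : m + 2 - 1 = m + 1 := by omega
    have e2 : m + 2 - 2 = m := by omega
    rw [e1] at h2
    rw [e2]
    nlinarith

end Vale.Agent.Results.P065.A_FewNonExtremePoints
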