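import Vale.Agent.H29.P065.Count

/-!
# Halving lines and the half-plane depth of the points

Let `P` be a set of `n` points in the plane, no three collinear. Suppose that for every point
`p` of `P` there is a line through `p`, containing no other point of `P`, with at most `m p`
points of `P` strictly on one of its sides. Then the number `h(P)` of halving lines of `P`
satisfies `2 h(P) ≤ n + 2 * (sum of the m p)`.
-/

namespace Vale.Agent.Results.P065.B_HalfPlaneDepth

open Vale.Agent.H29.P065

theorem result (P : Finset (ℝ × ℝ)) (hP : NoThreeCollinear P) (m : ℝ × ℝ → ℕ)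
    (hm : ∀ p ∈ P, ∃ a b : ℝ,
      (∀ q ∈ P, q ≠ p → a * (q.1 - p.1) + b * (q.2 - p.2) ≠ 0) ∧
        (P.filter (fun q => a * (q.1 - p.1) + b * (q.2 - p.2) < 0)).card ≤ m p) :
    2 * halvingCount P ≤ P.card + 2 * ∑ p ∈ P, m p := by
  classical
  have h1 := two_mul_halvingCount_le P
  have h2 : ∑ p ∈ P, (P.filter (fun q => IsHalvingPair P p q)).card ≤
      ∑ p ∈ P, (2 * m p + 1) := by
    apply Finset.sum_le_sum
    intro p hp
    obtain ⟨a, b, hne, hcard⟩ := hm p hp
    have := deg_le P hP p hp a b hne
    omega
  rw [Finset.sum_add_distrib, ← Finset.mul_sum, Finset.sum_const, smul_eq_mul, mul_one] at h2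
  omega

end Vale.Agent.Results.P065.B_HalfPlaneDepth
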